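import Vale.Agent.Lib.P068.Bounded

/-!
# P068: matroid intersection for pairs with bounded common independent sets

`Matroid α` is Mathlib's type of matroids on a possibly infinite ground set `M.E`
(the matroids of Bruhn, Diestel, Kriesell, Pendavingh and Wollan), `M.Indep` is independence,
`M.closure` is the closure operator and `M.RankFinite` says that `M` has a finite base.

For two matroids `M`, `N` on the same ground set:

1. if the sets independent in both matroids have bounded size, then there are disjoint sets
   `JM`, `JN` whose union is independent in both matroids and with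
   `M.closure JM ∪ N.closure JN` equal to the whole ground set;
2. in particular this holds as soon as one of the two matroids has finite rank.
-/

namespace Vale.Agent.Results.P068.BoundedCommonIndep

open Set Matroid

theorem result {α : Type*} (M N : Matroid α) (hE : M.E = N.E) :
    ((∃ k : ℕ, ∀ I : Set α, M.Indep I → N.Indep I → I.encard ≤ k) →
      ∃ JM JN : Set α, Disjoint JM JN ∧ M.Indep (JM ∪ JN) ∧ N.Indep (JM ∪ JN) ∧
        M.closure JM ∪ N.closure JN = M.E) ∧
    (M.RankFinite ∨ N.RankFinite →
      ∃ JM JN : Set α, Disjoint JM JN ∧ M.Indep (JM ∪ JN) ∧ N.Indep (JM ∪ JN) ∧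
        M.closure JM ∪ N.closure JN = M.E) :=
  ⟨Vale.Agent.Lib.P068.intersection_of_bounded M N hE,
    Vale.Agent.Lib.P068.intersection_of_rankFinite M N hE⟩

end Vale.Agent.Results.P068.BoundedCommonIndep
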