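import Vale.Agent.Lib.P068.Dual

/-!
# P068: duality for matroid intersection, and pairs with a matroid of finite rank or corank

`Matroid α` is Mathlib's type of matroids on a possibly infinite ground set `M.E`
(the matroids of Bruhn, Diestel, Kriesell, Pendavingh and Wollan), `M.Indep` is independence,
`M.closure` is the closure operator, `M✶` is the dual matroid, `M ＼ D` is the deletion of `D`,
`M.loops` and `M.coloops` are the sets of loops and of coloops, and `M.RankFinite` says that
`M` has a finite base.

For two matroids `M`, `N` on the same ground set: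

1. the pair `(M, N)` satisfies intersection (there are disjoint sets `JM`, `JN` whose union is
   independent in both matroids with `M.closure JM ∪ N.closure JN` the whole ground set) if and
   only if the pair of duals `(M✶, N✶)` does;
2. `(M, N)` satisfies intersection if the sets independent in both `M` and `N` have bounded
   size, or the sets independent in both `M✶` and `N✶` have bounded size;
3. `(M, N)` satisfies intersection if one of the two matroids has finite rank, or finite corank,
   or finite rank after deleting its coloops, or finite corank after deleting its loops.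
-/

namespace Vale.Agent.Results.P068.DualAndFiniteCorank

open Set Matroid

theorem result {α : Type*} (M N : Matroid α) (hE : M.E = N.E) :
    ((∃ JM JN : Set α, Disjoint JM JN ∧ M.Indep (JM ∪ JN) ∧ N.Indep (JM ∪ JN) ∧
        M.closure JM ∪ N.closure JN = M.E) ↔
      ∃ KM KN : Set α, Disjoint KM KN ∧ M✶.Indep (KM ∪ KN) ∧ N✶.Indep (KM ∪ KN) ∧
        M✶.closure KM ∪ N✶.closure KN = M.E) ∧
    ((∃ k : ℕ, ∀ I : Set α, M.Indep I → N.Indep I → I.encard ≤ k) ∨
        (∃ k : ℕ, ∀ I : Set α, M✶.Indep I → N✶.Indep I → I.encard ≤ k) →
      ∃ JM JN : Set α, Disjoint JM JN ∧ M.Indep (JM ∪ JN) ∧ N.Indep (JM ∪ JN) ∧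
        M.closure JM ∪ N.closure JN = M.E) ∧
    (M.RankFinite ∨ N.RankFinite ∨ M✶.RankFinite ∨ N✶.RankFinite ∨
        (M ＼ M.coloops).RankFinite ∨ (N ＼ N.coloops).RankFinite ∨
        (M ＼ M.loops)✶.RankFinite ∨ (N ＼ N.loops)✶.RankFinite →
      ∃ JM JN : Set α, Disjoint JM JN ∧ M.Indep (JM ∪ JN) ∧ N.Indep (JM ∪ JN) ∧
        M.closure JM ∪ N.closure JN = M.E) := by
  refine ⟨Vale.Agent.Lib.P068.intersection_dual_iff M N hE, ?_, ?_⟩
  · rintro (h | h)
    · exact Vale.Agent.Lib.P068.intersection_of_bounded M N hE h
    · exact Vale.Agent.Lib.P068.intersection_of_dual_bounded M N hE h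
  · rintro (h | h | h | h | h | h | h | h)
    · exact Vale.Agent.Lib.P068.intersection_of_rankFinite M N hE (Or.inl h)
    · exact Vale.Agent.Lib.P068.intersection_of_rankFinite M N hE (Or.inr h)
    · exact Vale.Agent.Lib.P068.intersection_of_dual_rankFinite M N hE (Or.inl h)
    · exact Vale.Agent.Lib.P068.intersection_of_dual_rankFinite M N hE (Or.inr h)
    · exact Vale.Agent.Lib.P068.intersection_symm N M hE.symm
        (Vale.Agent.Lib.P068.intersection_of_delete_coloops_rankFinite N M hE.symm h)
    · exact Vale.Agent.Lib.P068.intersection_of_delete_coloops_rankFinite M N hE h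
    · exact Vale.Agent.Lib.P068.intersection_symm N M hE.symm
        (Vale.Agent.Lib.P068.intersection_of_delete_loops_dual_rankFinite N M hE.symm h)
    · exact Vale.Agent.Lib.P068.intersection_of_delete_loops_dual_rankFinite M N hE h

end Vale.Agent.Results.P068.DualAndFiniteCorank
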