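import Vale.Agent.Lib.P068.PackCover

/-!
# P068: packing/covering partitions for pairs with a matroid of finite rank or corank

`Matroid α` is Mathlib's type of matroids on a possibly infinite ground set `M.E`
(the matroids of Bruhn, Diestel, Kriesell, Pendavingh and Wollan), `M.Indep` is independence,
`M.closure` is the closure operator, `M✶` is the dual matroid, `M ↾ P` is the restriction to
`P`, `M ／ P` is the contraction of `P` (a matroid on `M.E \ P`), and `M.RankFinite` says that
`M` has a finite base.

Let `M`, `N` be matroids on the same ground set `E`, one of which has finite rank or finite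
corank.  Then the pair has a packing/covering partition: `E` is the disjoint union of sets
`P` and `C`, there are disjoint sets `SM`, `SN ⊆ P` that span `P` in `M ↾ P` and in `N ↾ P`
respectively, and there are sets `IM`, `IN` with union `C`, independent in `M ／ P` and in
`N ／ P` respectively.
-/

namespace Vale.Agent.Results.P068.PackingCoveringPairs

open Set Matroid

theorem result {α : Type*} (M N : Matroid α) (hE : M.E = N.E)
    (h : M.RankFinite ∨ N.RankFinite ∨ M✶.RankFinite ∨ N✶.RankFinite) :
    ∃ P C SM SN IM IN : Set α, P ∪ C = M.E ∧ Disjoint P C ∧
      SM ⊆ P ∧ SN ⊆ P ∧ Disjoint SM SN ∧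
      (M ↾ P).closure SM = P ∧ (N ↾ P).closure SN = P ∧
      (M ／ P).Indep IM ∧ (N ／ P).Indep IN ∧ IM ∪ IN = C :=
  Vale.Agent.Lib.P068.packCover_of_rankFinite M N hE h

end Vale.Agent.Results.P068.PackingCoveringPairs
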